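import Crest.Agent.R71.Sys

/-! Counting on both sides: few labels for mixtures of columns, many rows. -/

set_option autoImplicit false
open Finset

namespace Crest.Agent.R71

lemma exists_list_of_card_le {Z : Type} [Nonempty Z] (Γ : Finset Z) {r : ℕ} (h : Γ.card ≤ r) :
    ∃ γ : Fin r → Z, ∀ z ∈ Γ, ∃ j, γ j = z := by
  classical
  refine ⟨fun j => if hj : (j : ℕ) < Γ.card then (Γ.equivFin.symm ⟨j, hj⟩ : Z)
    else Classical.arbitrary Z, fun z hz => ?_⟩
  refine ⟨⟨(Γ.equivFin ⟨z, hz⟩ : ℕ), lt_of_lt_of_le (Γ.equivFin ⟨z, hz⟩).2 h⟩, ?_⟩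
  simp

open Classical in
/-- labels for signed mixtures of columns -/
lemma exists_label {δ κ : ℝ} {A : ℕ} {E S : Type} [Fintype E] [Fintype S] [Nonempty E]
    {alive : S → Set E} {φ : S → Set E → ℕ} (h : IsSys δ κ A E S alive φ)
    (Y : Type) [Fintype Y] [Nonempty Y] (r : ℕ) (hr : A * κ * Fintype.card E < r + 1)
    (M : ℕ) (hM : 0 < M) :
    ∃ (L : Type) (Λ : Finset L) (label : (S × (E → Y) → ℝ) → L),
      Λ.card = (Fintype.card E * Fintype.card Y) ^ r *
        (2 * M + 1) ^ Fintype.card (S × Finset (Fin r)) ∧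
      (∀ y, ∑ x, |y x| ≤ 1 → label y ∈ Λ) ∧
      ∀ y y', ∑ x, |y x| ≤ 1 → ∑ x, |y' x| ≤ 1 → label y = label y' → ∀ u : E → Y,
        |∑ x : S × (E → Y), (φ x.1 {e | u e = x.2 e} : ℝ) * (y x - y' x)| ≤
          2 * (1 + (A + 1) * (A * δ)) + (A + 1) * Fintype.card (S × Finset (Fin r)) / M := by
  have hle : ∀ t U, φ t U ≤ A + 1 := fun t U => (h.mono t (Set.subset_univ U)).trans (h.top t).le
  have hγ : ∀ y : S × (E → Y) → ℝ, ∃ γ : Fin r → E × Y, ∑ x, |y x| ≤ 1 → ∀ u : E → Y,
      ∑ x ∈ Finset.univ.filter (fun x : S × (E → Y) =>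
        φ x.1 {e | u e = x.2 e ∧ ∃ j, γ j = (e, x.2 e)} + 1 < φ x.1 {e | u e = x.2 e}), |y x| ≤
        A * δ := by
    intro y
    by_cases hy : ∑ x, |y x| ≤ 1
    · obtain ⟨Γ, hΓc, hΓ⟩ := h.dual Y (S × (E → Y)) (fun x => |y x|) Prod.fst Prod.snd
        (fun x => abs_nonneg _) hy
      have hc : Γ.card ≤ r := by
        have : (Γ.card : ℝ) < r + 1 := hΓc.trans_lt hr
        have : Γ.card < r + 1 := by exact_mod_cast this
        omega
      obtain ⟨γ, hγ⟩ := exists_list_of_card_le Γ hc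
      refine ⟨γ, fun _ u => le_trans (Finset.sum_le_sum_of_subset_of_nonneg ?_
        (fun x _ _ => abs_nonneg _)) (hΓ u)⟩
      intro x hx
      refine Finset.mem_filter.mpr ⟨Finset.mem_univ _, lt_of_le_of_lt ?_ (Finset.mem_filter.mp hx).2⟩
      refine Nat.add_le_add_right (h.mono _ ?_) 1
      exact fun e he => ⟨he.1, hγ _ he.2⟩
    · exact ⟨fun _ => Classical.arbitrary _, fun h' => absurd h' hy⟩
  choose γ hγ using hγ
  let τ : (Fin r → E × Y) → S × (E → Y) → S × Finset (Fin r) := fun c x =>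
    (x.1, Finset.univ.filter (fun j => x.2 (c j).1 = (c j).2))
  let z : (S × (E → Y) → ℝ) → S × Finset (Fin r) → ℝ := fun y t =>
    ∑ x ∈ Finset.univ.filter (fun x => τ (γ y) x = t), y x
  let g : (Fin r → E × Y) → (E → Y) → S × Finset (Fin r) → ℕ := fun c u t =>
    φ t.1 {e | ∃ j ∈ t.2, c j = (e, u e)}
  have hg : ∀ c u x, g c u (τ c x) = φ x.1 {e | u e = x.2 e ∧ ∃ j, c j = (e, x.2 e)} := by
    intro c u x
    simp only [g, τ]
    congr 1
    ext e
    simp only [Finset.mem_filter, Finset.mem_univ, true_and, Set.mem_ofPred_eq]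
    constructor
    · rintro ⟨j, hj1, hj2⟩
      rw [hj2] at hj1
      simp only at hj1
      exact ⟨hj1.symm, j, by rw [hj2, hj1]⟩
    · rintro ⟨h1, j, hj⟩
      exact ⟨j, by rw [hj], by rw [hj, h1]⟩
  have hz : ∀ y t, ∑ x, |y x| ≤ 1 → |z y t| ≤ 1 := fun y t hy =>
    (Finset.abs_sum_le_sum_abs _ _).trans ((Finset.sum_le_sum_of_subset_of_nonneg
      (Finset.subset_univ _) (fun x _ _ => abs_nonneg _)).trans hy)
  have happ : ∀ y, ∑ x, |y x| ≤ 1 → ∀ u : E → Y,
      |∑ x : S × (E → Y), (φ x.1 {e | u e = x.2 e} : ℝ) * y x -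
        ∑ t, (g (γ y) u t : ℝ) * z y t| ≤ 1 + (A + 1) * (A * δ) := by
    intro y hy u
    have h1 : ∑ t, (g (γ y) u t : ℝ) * z y t = ∑ x, (g (γ y) u (τ (γ y) x) : ℝ) * y x := by
      rw [← Finset.sum_fiberwise_of_maps_to (g := τ (γ y)) (t := Finset.univ)
        (fun _ _ => Finset.mem_univ _)]
      apply Finset.sum_congr rfl
      intro t _
      simp only [z, Finset.mul_sum]
      apply Finset.sum_congr rfl
      intro x hx
      rw [(Finset.mem_filter.mp hx).2]
    rw [h1, ← Finset.sum_sub_distrib]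
    refine (Finset.abs_sum_le_sum_abs _ _).trans ?_
    have h2 := hγ y hy u
    rw [Finset.sum_filter] at h2
    have h3 : ∑ x, |y x| + (A + 1) * ∑ x : S × (E → Y), (if
        φ x.1 {e | u e = x.2 e ∧ ∃ j, γ y j = (e, x.2 e)} + 1 < φ x.1 {e | u e = x.2 e}
        then |y x| else 0) ≤ 1 + (A + 1) * (A * δ) := by gcongr
    refine le_trans ?_ h3
    rw [Finset.mul_sum, ← Finset.sum_add_distrib]
    apply Finset.sum_le_sum
    intro x _
    rw [hg, ← sub_mul, abs_mul]
    have hm : φ x.1 {e | u e = x.2 e ∧ ∃ j, γ y j = (e, x.2 e)} ≤ φ x.1 {e | u e = x.2 e} :=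
      h.mono _ (fun e he => he.1)
    have hm' : (φ x.1 {e | u e = x.2 e ∧ ∃ j, γ y j = (e, x.2 e)} : ℝ) ≤
        φ x.1 {e | u e = x.2 e} := by exact_mod_cast hm
    rw [abs_of_nonneg (sub_nonneg.mpr hm')]
    have hy0 := abs_nonneg (y x)
    split_ifs with hc
    · have h4 : (φ x.1 {e | u e = x.2 e} : ℝ) ≤ A + 1 := by exact_mod_cast hle _ _
      have h5 : (0 : ℝ) ≤ φ x.1 {e | u e = x.2 e ∧ ∃ j, γ y j = (e, x.2 e)} := Nat.cast_nonneg _
      nlinarith
    · have h4 : (φ x.1 {e | u e = x.2 e} : ℝ) ≤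
          φ x.1 {e | u e = x.2 e ∧ ∃ j, γ y j = (e, x.2 e)} + 1 := by exact_mod_cast not_lt.mp hc
      nlinarith
  have hM' : (0 : ℝ) < M := by exact_mod_cast hM
  refine ⟨(Fin r → E × Y) × (S × Finset (Fin r) → ℤ),
    Finset.univ ×ˢ Fintype.piFinset (fun _ => Finset.Icc (-(M : ℤ)) M),
    fun y => (γ y, fun t => ⌊M * z y t⌋), ?_, ?_, ?_⟩
  · rw [Finset.card_product, Fintype.card_piFinset, Finset.card_univ, Fintype.card_fun,
      Fintype.card_prod, Fintype.card_fin, Finset.prod_const, Finset.card_univ, Int.card_Icc]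
    congr 2
    omega
  · intro y hy
    refine Finset.mem_product.mpr ⟨Finset.mem_univ _, Fintype.mem_piFinset.mpr fun t => ?_⟩
    have h1 := abs_le.mp (hz y t hy)
    rw [Finset.mem_Icc]
    constructor
    · rw [Int.le_floor]; push_cast; nlinarith
    · rw [Int.floor_le_iff]; push_cast; nlinarith
  · intro y y' hy hy' hl u
    have hl1 : γ y = γ y' := congrArg Prod.fst hl
    have hl2 : ∀ t, ⌊M * z y t⌋ = ⌊M * z y' t⌋ := fun t => congrFun (congrArg Prod.snd hl) t
    have h1 := happ y hy u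
    have h2 := happ y' hy' u
    rw [← hl1] at h2
    have h3 : |∑ t, (g (γ y) u t : ℝ) * z y t - ∑ t, (g (γ y) u t : ℝ) * z y' t| ≤
        (A + 1) * Fintype.card (S × Finset (Fin r)) / M := by
      rw [← Finset.sum_sub_distrib]
      refine (Finset.abs_sum_le_sum_abs _ _).trans ?_
      have : ∀ t, |(g (γ y) u t : ℝ) * z y t - (g (γ y) u t : ℝ) * z y' t| ≤ (A + 1) * (1 / M) := by
        intro t
        rw [← mul_sub, abs_mul, Nat.abs_cast]
        have h4 : (g (γ y) u t : ℝ) ≤ A + 1 := by exact_mod_cast hle _ _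
        have h5 := Int.abs_sub_lt_one_of_floor_eq_floor (hl2 t)
        rw [← mul_sub, abs_mul, abs_of_pos hM'] at h5
        have h6 : |z y t - z y' t| ≤ 1 / M := by
          rw [le_div_iff₀ hM']; linarith
        gcongr
      refine (Finset.sum_le_sum fun t _ => this t).trans (le_of_eq ?_)
      rw [Finset.sum_const, Finset.card_univ, nsmul_eq_mul]; ring
    simp only [mul_sub, Finset.sum_sub_distrib]
    rw [abs_le] at h1 h2 h3 ⊢
    constructor <;> linarith [h1.1, h1.2, h2.1, h2.2, h3.1, h3.2]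

open Classical in
/-- few words agree with a given word on many places -/
lemma card_agree_le {E Y : Type} [Fintype E] [Fintype Y] [Nonempty Y] (u : E → Y) (w : ℕ) :
    (Finset.univ.filter (fun v : E → Y =>
      w ≤ (Finset.univ.filter (fun e => v e = u e)).card)).card ≤
      2 ^ Fintype.card E * Fintype.card Y ^ (Fintype.card E - w) := by
  have hsub : Finset.univ.filter (fun v : E → Y =>
      w ≤ (Finset.univ.filter (fun e => v e = u e)).card) ⊆
      (Finset.univ.filter (fun W : Finset E => w ≤ W.card)).biUnion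
        (fun W => Fintype.piFinset (fun e => if e ∈ W then {u e} else Finset.univ)) := by
    intro v hv
    refine Finset.mem_biUnion.mpr ⟨Finset.univ.filter (fun e => v e = u e),
      Finset.mem_filter.mpr ⟨Finset.mem_univ _, (Finset.mem_filter.mp hv).2⟩,
      Fintype.mem_piFinset.mpr fun e => ?_⟩
    split_ifs with he
    · simpa using he
    · exact Finset.mem_univ _
  refine (Finset.card_le_card hsub).trans (Finset.card_biUnion_le.trans ?_)
  have h1 : ∀ W ∈ Finset.univ.filter (fun W : Finset E => w ≤ W.card),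
      (Fintype.piFinset (fun e => if e ∈ W then ({u e} : Finset Y) else Finset.univ)).card ≤
        Fintype.card Y ^ (Fintype.card E - w) := by
    intro W hW
    rw [Fintype.card_piFinset]
    have : ∀ e, (if e ∈ W then ({u e} : Finset Y) else Finset.univ).card =
        if e ∈ W then 1 else Fintype.card Y := by
      intro e; split_ifs <;> simp
    simp_rw [this]
    rw [Finset.prod_ite, Finset.prod_const_one, one_mul, Finset.prod_const]
    apply Nat.pow_le_pow_right Fintype.card_pos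
    have h2 : Finset.univ.filter (fun e => e ∉ W) = Wᶜ := by ext e; simp
    rw [h2, Finset.card_compl]
    have := (Finset.mem_filter.mp hW).2
    omega
  refine (Finset.sum_le_sum h1).trans ?_
  rw [Finset.sum_const, smul_eq_mul]
  gcongr
  refine (Finset.card_le_univ _).trans (le_of_eq ?_)
  simp

end Crest.Agent.R71
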