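import Mathlib

/-! The tree systems behind the failure of covering-number duality. -/

set_option autoImplicit false
open Finset

namespace Crest.Agent.R71

open Classical in
lemma hit_one {s : ℕ} (hs : 0 < s) {X : Type} (ν : X → ℝ) (hν : ∀ x, 0 ≤ ν x)
    (R : X → Finset (Fin s)) (T : Finset X) (hT : ∀ x ∈ T, s ≤ 2 * (R x).card) :
    ∃ c : Fin s, ∑ x ∈ T.filter (fun x => c ∉ R x), ν x ≤ (1 / 2) * ∑ x ∈ T, ν x := by
  have hne : (Finset.univ : Finset (Fin s)).Nonempty := ⟨⟨0, hs⟩, mem_univ _⟩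
  have key : ∑ c : Fin s, ∑ x ∈ T.filter (fun x => c ∉ R x), ν x ≤
      ∑ _c : Fin s, (1 / 2) * ∑ x ∈ T, ν x := by
    simp_rw [Finset.sum_filter]
    rw [Finset.sum_comm, Finset.sum_const, Finset.card_univ, Fintype.card_fin, nsmul_eq_mul,
      Finset.mul_sum, Finset.mul_sum]
    apply Finset.sum_le_sum
    intro x hx
    rw [← Finset.sum_filter, Finset.sum_const, nsmul_eq_mul]
    have h1 : (Finset.univ.filter (fun c : Fin s => c ∉ R x)) = (R x)ᶜ := by
      ext c; simp
    rw [h1, Finset.card_compl, Fintype.card_fin]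
    have h2 := hT x hx
    have h3 : (R x).card ≤ s := by simpa using Finset.card_le_univ (R x)
    rw [Nat.cast_sub h3]
    have h4 : (s : ℝ) ≤ 2 * ((R x).card : ℝ) := by exact_mod_cast h2
    have := hν x
    nlinarith
  obtain ⟨c, -, hc⟩ := Finset.exists_le_of_sum_le hne key
  exact ⟨c, hc⟩

open Classical in
lemma hit_many {s : ℕ} (hs : 0 < s) {X : Type} (ν : X → ℝ) (hν : ∀ x, 0 ≤ ν x)
    (R : X → Finset (Fin s)) (g : ℕ) : ∀ (T : Finset X), (∀ x ∈ T, s ≤ 2 * (R x).card) →
    ∃ C : Finset (Fin s), C.card ≤ g ∧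
      ∑ x ∈ T.filter (fun x => ∀ c ∈ C, c ∉ R x), ν x ≤ (1 / 2) ^ g * ∑ x ∈ T, ν x := by
  induction g with
  | zero => intro T _; exact ⟨∅, le_rfl, by simp⟩
  | succ g ih =>
    intro T hT
    obtain ⟨c, hc⟩ := hit_one hs ν hν R T hT
    obtain ⟨C, hC1, hC2⟩ := ih (T.filter (fun x => c ∉ R x))
      (fun x hx => hT x (Finset.mem_filter.mp hx).1)
    refine ⟨insert c C, (Finset.card_insert_le _ _).trans (by omega), ?_⟩
    have h1 : T.filter (fun x => ∀ c' ∈ insert c C, c' ∉ R x) =
        (T.filter (fun x => c ∉ R x)).filter (fun x => ∀ c ∈ C, c ∉ R x) := by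
      ext x; simp [and_assoc]
    rw [h1]
    calc _ ≤ _ := hC2
      _ ≤ (1 / 2) ^ g * ((1 / 2) * ∑ x ∈ T, ν x) := by gcongr
      _ = _ := by ring

open Classical in
/-- at most `1/η` values are heavy -/
lemma heavy_card {X Y : Type} [Fintype X] (μ : X → ℝ) (hμ : ∀ x, 0 ≤ μ x) (hμ1 : ∑ x, μ x ≤ 1)
    (f : X → Y) {η : ℝ} (hη : 0 < η) :
    (((Finset.univ.image f).filter
      (fun y => η ≤ ∑ x ∈ Finset.univ.filter (fun x => f x = y), μ x)).card : ℝ) ≤ 1 / η := by
  set H := (Finset.univ.image f).filter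
      (fun y => η ≤ ∑ x ∈ Finset.univ.filter (fun x => f x = y), μ x) with hH
  have h1 : (H.card : ℝ) * η ≤ ∑ y ∈ H, ∑ x ∈ Finset.univ.filter (fun x => f x = y), μ x := by
    rw [← nsmul_eq_mul, ← Finset.sum_const]
    exact Finset.sum_le_sum fun y hy => (Finset.mem_filter.mp hy).2
  have h2 : ∑ y ∈ H, ∑ x ∈ Finset.univ.filter (fun x => f x = y), μ x ≤
      ∑ y ∈ Finset.univ.image f, ∑ x ∈ Finset.univ.filter (fun x => f x = y), μ x :=
    Finset.sum_le_sum_of_subset_of_nonneg (Finset.filter_subset _ _)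
      (fun y _ _ => Finset.sum_nonneg fun x _ => hμ x)
  have h3 : ∑ y ∈ Finset.univ.image f, ∑ x ∈ Finset.univ.filter (fun x => f x = y), μ x =
      ∑ x, μ x :=
    Finset.sum_fiberwise_of_maps_to (fun x _ => Finset.mem_image_of_mem f (Finset.mem_univ x)) μ
  rw [le_div_iff₀ hη]
  linarith

open Classical in
/-- The properties of a tree system of depth `A`. -/
structure IsSys (δ κ : ℝ) (A : ℕ) (E S : Type) [Fintype E] (alive : S → Set E)
    (φ : S → Set E → ℕ) : Prop where
  mono : ∀ t, Monotone (φ t)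
  top : ∀ t, φ t Set.univ = A + 1
  pos : ∀ t U, 0 < φ t U → ∃ e ∈ U, e ∈ alive t
  sep : ∀ W : Finset E, W.card * 2 ^ A < Fintype.card E → ∃ t, ∀ e ∈ W, e ∉ alive t
  dual : ∀ (Y X : Type) [Fintype X] (μ : X → ℝ) (σ : X → S) (α : X → E → Y),
    (∀ x, 0 ≤ μ x) → ∑ x, μ x ≤ 1 →
    ∃ Γ : Finset (E × Y), (Γ.card : ℝ) ≤ A * κ * Fintype.card E ∧
      ∀ u : E → Y, ∑ x ∈ Finset.univ.filter (fun x =>
        φ (σ x) {e | u e = α x e ∧ (e, α x e) ∈ Γ} + 1 < φ (σ x) {e | u e = α x e}), μ x ≤ A * δ

open Classical in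
lemma isSys_zero (δ κ : ℝ) :
    IsSys δ κ 0 Unit Unit (fun _ => Set.univ) (fun _ U => if U.Nonempty then 1 else 0) where
  mono := by
    intro _ U V hUV
    by_cases h : U.Nonempty
    · simp [h, h.mono hUV]
    · simp [h]
  top := by intro _; simp
  pos := by
    intro _ U h
    by_cases hU : U.Nonempty
    · obtain ⟨e, he⟩ := hU; exact ⟨e, he, trivial⟩
    · simp [hU] at h
  sep := by
    intro W hW
    refine ⟨(), fun e he => ?_⟩
    have : 0 < W.card := Finset.card_pos.mpr ⟨e, he⟩
    simp at hW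
    simp [hW] at he
  dual := by
    intro Y X _ μ σ α hμ hμ1
    refine ⟨∅, by simp, fun u => ?_⟩
    rw [Finset.filter_false_of_mem]
    · simp
    · intro x _
      split_ifs <;> omega

open Classical in
/-- column types after adding a bottom level -/
def NextS {E S : Type} (alive : S → Set E) (s : ℕ) : Type :=
  {p : S × Finset (E × Fin s) //
    ∀ e ∈ alive p.1, s ≤ 2 * (Finset.univ.filter (fun c : Fin s => (e, c) ∈ p.2)).card}

noncomputable instance instFintypeNextS {E S : Type} [Fintype E] [Fintype S] (alive : S → Set E)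
    (s : ℕ) : Fintype (NextS alive s) := by
  classical
  unfold NextS
  exact Subtype.fintype _

/-- the elements whose whole fibre lies in `U` -/
def hat {E : Type} {s : ℕ} (U : Set (E × Fin s)) : Set E := {e | ∀ c, (e, c) ∈ U}

open Classical in
lemma isSys_succ {δ κ : ℝ} (hδ : 0 < δ) (hκ : 0 < κ) {A : ℕ} {E S : Type} [Fintype E]
    [Nonempty E] {alive : S → Set E} {φ : S → Set E → ℕ} (h : IsSys δ κ A E S alive φ) :
    ∃ s : ℕ, 0 < s ∧ IsSys δ κ (A + 1) (E × Fin s) (NextS alive s)
      (fun p => (p.1.2 : Set (E × Fin s)))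
      (fun p U => φ p.1.1 (hat U) + if (U ∩ (p.1.2 : Set (E × Fin s))).Nonempty then 1 else 0) := by
  set N : ℝ := (Fintype.card E : ℝ) with hN_def
  have hN : 0 < N := by rw [hN_def]; exact_mod_cast Fintype.card_pos
  obtain ⟨g, hg⟩ := exists_pow_lt_of_lt_one (show 0 < δ / (2 * N) by positivity)
    (show (1 / 2 : ℝ) < 1 by norm_num)
  set η : ℝ := δ / (2 * (N * g + 1)) with hη_def
  have hη : 0 < η := by positivity
  obtain ⟨s, hs⟩ := exists_nat_gt (g * (1 / η) / κ)
  have hs0 : 0 < s := by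
    have : (0 : ℝ) < s := lt_of_le_of_lt (by positivity) hs
    exact_mod_cast this
  have hpos' : ∀ (p : NextS alive s) (U : Set (E × Fin s)), 0 < φ p.1.1 (hat U) →
      (U ∩ (p.1.2 : Set (E × Fin s))).Nonempty := by
    intro p U hU
    obtain ⟨e, he, hea⟩ := h.pos _ _ hU
    have h1 := p.2 e hea
    have h2 : 0 < (Finset.univ.filter (fun c : Fin s => (e, c) ∈ p.1.2)).card := by omega
    obtain ⟨c, hc⟩ := Finset.card_pos.mp h2
    exact ⟨(e, c), he c, (Finset.mem_filter.mp hc).2⟩
  refine ⟨s, hs0, ?_, ?_, ?_, ?_, ?_⟩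
  · intro p U V hUV
    apply add_le_add
    · exact h.mono _ (fun e he c => hUV (he c))
    · by_cases hU : (U ∩ (p.1.2 : Set (E × Fin s))).Nonempty
      · rw [if_pos hU, if_pos (hU.mono (Set.inter_subset_inter_left _ hUV))]
      · rw [if_neg hU]; exact Nat.zero_le _
  · intro p
    have h1 : hat (Set.univ : Set (E × Fin s)) = Set.univ := by ext e; simp [hat]
    have h2 := hpos' p Set.univ (by rw [h1, h.top]; omega)
    simp only [h1, h.top, if_pos h2]
  · intro p U hU
    have : (U ∩ (p.1.2 : Set (E × Fin s))).Nonempty := by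
      by_contra hcon
      simp only [if_neg hcon, add_zero] at hU
      exact hcon (hpos' p U hU)
    obtain ⟨e, he1, he2⟩ := this
    exact ⟨e, he1, he2⟩
  · intro W hW
    set W0 : Finset E := Finset.univ.filter
      (fun e => s < 2 * (Finset.univ.filter (fun c : Fin s => (e, c) ∈ W)).card) with hW0
    have hcard : W.card = ∑ e : E, (Finset.univ.filter (fun c : Fin s => (e, c) ∈ W)).card := by
      rw [Finset.card_eq_sum_ones, ← Finset.sum_fiberwise_of_maps_to
        (g := Prod.fst) (t := Finset.univ) (fun _ _ => Finset.mem_univ _)]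
      apply Finset.sum_congr rfl
      intro e _
      rw [← Finset.card_eq_sum_ones]
      symm
      apply Finset.card_bij (fun c _ => (e, c))
      · intro c hc; simpa using hc
      · intro c _ c' _ hcc; simpa using hcc
      · rintro ⟨e', c⟩ hc
        simp only [Finset.mem_filter] at hc
        obtain ⟨hc1, rfl⟩ := hc
        exact ⟨c, by simpa using hc1, rfl⟩
    have h1 : W0.card * s ≤ 2 * W.card := by
      rw [hcard, Finset.mul_sum, ← smul_eq_mul, ← Finset.sum_const]
      calc ∑ _e ∈ W0, s ≤ ∑ e ∈ W0, 2 * (Finset.univ.filter (fun c : Fin s => (e, c) ∈ W)).card :=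
            Finset.sum_le_sum fun e he => (Finset.mem_filter.mp he).2.le
        _ ≤ _ := Finset.sum_le_sum_of_subset (Finset.subset_univ _)
    have h2 : W0.card * 2 ^ A < Fintype.card E := by
      rw [Fintype.card_prod, Fintype.card_fin] at hW
      apply Nat.lt_of_mul_lt_mul_right (a := s)
      calc W0.card * 2 ^ A * s = (W0.card * s) * 2 ^ A := by ring
        _ ≤ (2 * W.card) * 2 ^ A := by gcongr
        _ = W.card * 2 ^ (A + 1) := by ring
        _ < _ := hW
    obtain ⟨t, ht⟩ := h.sep W0 h2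
    refine ⟨⟨(t, Wᶜ), fun e he => ?_⟩, fun e he => by simpa using he⟩
    have h3 : e ∉ W0 := fun h' => ht e h' he
    simp only [hW0, Finset.mem_filter, Finset.mem_univ, true_and, not_lt] at h3
    have h4 := Finset.card_filter_add_card_filter_not (s := (Finset.univ : Finset (Fin s)))
      (fun c : Fin s => (e, c) ∈ W)
    simp only [Finset.card_univ, Fintype.card_fin] at h4
    simp only [Finset.mem_compl]
    omega
  · intro Y X _ μ σ α hμ hμ1
    obtain ⟨Γ0, hΓ0c, hΓ0⟩ := h.dual (Fin s → Y) X μ (fun x => (σ x).1.1)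
      (fun x e c => α x (e, c)) hμ hμ1
    have hC : ∀ e : E, ∃ C : Finset (Fin s), C.card ≤ g ∧
        ∑ x ∈ (Finset.univ.filter (fun x => e ∈ alive (σ x).1.1)).filter
          (fun x => ∀ c ∈ C, c ∉ Finset.univ.filter (fun c : Fin s => (e, c) ∈ (σ x).1.2)), μ x ≤
          (1 / 2) ^ g := by
      intro e
      obtain ⟨C, hC1, hC2⟩ := hit_many hs0 μ hμ
        (fun x => Finset.univ.filter (fun c : Fin s => (e, c) ∈ (σ x).1.2)) g
        (Finset.univ.filter (fun x => e ∈ alive (σ x).1.1))
        (fun x hx => (σ x).2 e (Finset.mem_filter.mp hx).2)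
      refine ⟨C, hC1, hC2.trans ?_⟩
      have : ∑ x ∈ Finset.univ.filter (fun x => e ∈ alive (σ x).1.1), μ x ≤ 1 :=
        (Finset.sum_le_sum_of_subset_of_nonneg (Finset.subset_univ _) (fun x _ _ => hμ x)).trans hμ1
      calc _ ≤ (1 / 2 : ℝ) ^ g * 1 := by gcongr
        _ = _ := mul_one _
    choose C hC1 hC2 using hC
    set P : Finset (E × Fin s) := Finset.univ.biUnion (fun e => (C e).image (fun c => (e, c)))
      with hP
    have hPc : (P.card : ℝ) ≤ N * g := by
      have : P.card ≤ Fintype.card E * g := by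
        refine Finset.card_biUnion_le.trans ?_
        rw [← smul_eq_mul, ← Finset.card_univ, ← Finset.sum_const]
        exact Finset.sum_le_sum fun e _ => Finset.card_image_le.trans (hC1 e)
      rw [hN_def]; exact_mod_cast this
    set Hv : E × Fin s → Finset Y := fun p => (Finset.univ.image (fun x => α x p)).filter
      (fun y => η ≤ ∑ x ∈ Finset.univ.filter (fun x => α x p = y), μ x) with hHv
    set Γ1 : Finset ((E × Fin s) × Y) :=
      (Γ0 ×ˢ (Finset.univ : Finset (Fin s))).image (fun z => ((z.1.1, z.2), z.1.2 z.2)) with hΓ1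
    set Γ2 : Finset ((E × Fin s) × Y) := P.biUnion (fun p => (Hv p).image (fun y => (p, y)))
      with hΓ2
    have hΓ1c : (Γ1.card : ℝ) ≤ A * κ * N * s := by
      have : Γ1.card ≤ Γ0.card * s := by
        refine Finset.card_image_le.trans ?_
        rw [Finset.card_product, Finset.card_univ, Fintype.card_fin]
      calc (Γ1.card : ℝ) ≤ Γ0.card * s := by exact_mod_cast this
        _ ≤ _ := by gcongr
    have hΓ2c : (Γ2.card : ℝ) ≤ κ * N * s := by
      have h1 : (Γ2.card : ℝ) ≤ ∑ p ∈ P, (((Hv p).card : ℕ) : ℝ) := by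
        have : Γ2.card ≤ ∑ p ∈ P, (Hv p).card :=
          Finset.card_biUnion_le.trans (Finset.sum_le_sum fun p _ => Finset.card_image_le)
        exact_mod_cast this
      have h2 : ∑ p ∈ P, (((Hv p).card : ℕ) : ℝ) ≤ ∑ _p ∈ P, 1 / η :=
        Finset.sum_le_sum fun p _ => heavy_card μ hμ hμ1 (fun x => α x p) hη
      rw [Finset.sum_const, nsmul_eq_mul] at h2
      have h3 : g * (1 / η) ≤ s * κ := by
        rw [div_lt_iff₀ hκ] at hs; exact hs.le
      calc (Γ2.card : ℝ) ≤ P.card * (1 / η) := h1.trans h2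
        _ ≤ N * g * (1 / η) := by gcongr
        _ = N * (g * (1 / η)) := by ring
        _ ≤ N * (s * κ) := by gcongr
        _ = _ := by ring
    refine ⟨Γ1 ∪ Γ2, ?_, fun u => ?_⟩
    · have : ((Γ1 ∪ Γ2).card : ℝ) ≤ Γ1.card + Γ2.card := by
        exact_mod_cast Finset.card_union_le Γ1 Γ2
      rw [Fintype.card_prod, Fintype.card_fin]
      push_cast
      rw [← hN_def]
      nlinarith
    · have hb0 := hΓ0 (fun e c => u (e, c))
      set B0 := Finset.univ.filter (fun x => φ (σ x).1.1
        {e | (fun c => u (e, c)) = (fun c => α x (e, c)) ∧ (e, fun c => α x (e, c)) ∈ Γ0} + 1 <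
        φ (σ x).1.1 {e | (fun c => u (e, c)) = (fun c => α x (e, c))}) with hB0
      set B1 : E → Finset X := fun e =>
        (Finset.univ.filter (fun x => e ∈ alive (σ x).1.1)).filter
          (fun x => ∀ c ∈ C e, c ∉ Finset.univ.filter (fun c : Fin s => (e, c) ∈ (σ x).1.2))
        with hB1
      set B2 : E × Fin s → Finset X := fun p =>
        Finset.univ.filter (fun x => α x p = u p ∧ u p ∉ Hv p) with hB2
      have hB2b : ∀ p, ∑ x ∈ B2 p, μ x ≤ η := by
        intro p
        by_cases hp : (B2 p).Nonempty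
        · obtain ⟨x, hx⟩ := hp
          obtain ⟨hx1, hx2⟩ := (Finset.mem_filter.mp hx).2
          have h1 : ¬ η ≤ ∑ x ∈ Finset.univ.filter (fun x => α x p = u p), μ x := by
            intro hcon
            exact hx2 (Finset.mem_filter.mpr
              ⟨Finset.mem_image.mpr ⟨x, Finset.mem_univ _, hx1⟩, hcon⟩)
          refine le_trans (Finset.sum_le_sum_of_subset_of_nonneg ?_ (fun x _ _ => hμ x))
            (not_le.mp h1).le
          intro y hy
          exact Finset.mem_filter.mpr ⟨Finset.mem_univ _, (Finset.mem_filter.mp hy).2.1⟩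
        · rw [Finset.not_nonempty_iff_eq_empty.mp hp]; simpa using hη.le
      have hsum_bi : ∀ {I : Type} (J : Finset I) (B : I → Finset X),
          ∑ x ∈ J.biUnion B, μ x ≤ ∑ i ∈ J, ∑ x ∈ B i, μ x := by
        intro I J B
        induction J using Finset.induction_on with
        | empty => simp
        | insert i J hi ih =>
          rw [Finset.biUnion_insert, Finset.sum_insert hi]
          have := Finset.sum_union_inter (s₁ := B i) (s₂ := J.biUnion B) (f := μ)
          have h0 : 0 ≤ ∑ x ∈ B i ∩ J.biUnion B, μ x := Finset.sum_nonneg fun x _ => hμ x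
          linarith
      have hsum_un : ∀ (B B' : Finset X), ∑ x ∈ B ∪ B', μ x ≤ ∑ x ∈ B, μ x + ∑ x ∈ B', μ x := by
        intro B B'
        have := Finset.sum_union_inter (s₁ := B) (s₂ := B') (f := μ)
        have h0 : 0 ≤ ∑ x ∈ B ∩ B', μ x := Finset.sum_nonneg fun x _ => hμ x
        linarith
      have hb1 : ∑ x ∈ Finset.univ.biUnion B1, μ x ≤ δ / 2 := by
        refine (hsum_bi _ _).trans ((Finset.sum_le_sum fun e _ => hC2 e).trans ?_)
        rw [Finset.sum_const, nsmul_eq_mul, Finset.card_univ, ← hN_def]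
        rw [lt_div_iff₀ (by positivity)] at hg
        linarith
      have hb2 : ∑ x ∈ P.biUnion B2, μ x ≤ δ / 2 := by
        refine (hsum_bi _ _).trans ((Finset.sum_le_sum fun p _ => hB2b p).trans ?_)
        rw [Finset.sum_const, nsmul_eq_mul]
        calc (P.card : ℝ) * η ≤ (N * g + 1) * η := by gcongr; linarith
          _ = δ / 2 := by rw [hη_def]; field_simp
      refine le_trans (Finset.sum_le_sum_of_subset_of_nonneg
        (t := (B0 ∪ Finset.univ.biUnion B1) ∪ P.biUnion B2) ?_ (fun x _ _ => hμ x)) ?_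
      · intro x hx
        have hx' := (Finset.mem_filter.mp hx).2
        by_contra hcon
        simp only [Finset.mem_union, not_or] at hcon
        obtain ⟨⟨hx0, hx1⟩, hx2⟩ := hcon
        simp only [hB0, Finset.mem_filter, Finset.mem_univ, true_and, not_lt] at hx0
        have e1 : hat {p : E × Fin s | u p = α x p} =
            {e | (fun c => u (e, c)) = (fun c => α x (e, c))} := by
          ext e; simp [hat, funext_iff]
        have e2 : {e | (fun c => u (e, c)) = (fun c => α x (e, c)) ∧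
            (e, fun c => α x (e, c)) ∈ Γ0} ⊆
            hat {p : E × Fin s | u p = α x p ∧ (p, α x p) ∈ Γ1 ∪ Γ2} := by
          rintro e ⟨he1, he2⟩ c
          refine ⟨congrFun he1 c, Finset.mem_union_left _ (Finset.mem_image.mpr
            ⟨((e, fun c => α x (e, c)), c), Finset.mem_product.mpr ⟨he2, Finset.mem_univ _⟩, rfl⟩)⟩
        have e3 := h.mono (σ x).1.1 e2
        rw [e1] at hx'
        by_cases hi : ({p : E × Fin s | u p = α x p ∧ (p, α x p) ∈ Γ1 ∪ Γ2} ∩
            ((σ x).1.2 : Set (E × Fin s))).Nonempty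
        · rw [if_pos hi] at hx'
          split_ifs at hx' <;> omega
        · rw [if_neg hi] at hx'
          have hφ : 0 < φ (σ x).1.1 {e | (fun c => u (e, c)) = (fun c => α x (e, c))} := by
            split_ifs at hx' <;> omega
          obtain ⟨e, he1, he2⟩ := h.pos _ _ hφ
          have h1 : x ∉ B1 e := fun h' =>
            hx1 (Finset.mem_biUnion.mpr ⟨e, Finset.mem_univ _, h'⟩)
          simp only [hB1, Finset.mem_filter, Finset.mem_univ, true_and, he2, not_forall,
            not_not] at h1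
          obtain ⟨c, hc1, hc2⟩ := h1
          have hcP : (e, c) ∈ P := Finset.mem_biUnion.mpr
            ⟨e, Finset.mem_univ _, Finset.mem_image_of_mem _ hc1⟩
          have huc : u (e, c) = α x (e, c) := congrFun he1 c
          have h2 : x ∉ B2 (e, c) := fun h' => hx2 (Finset.mem_biUnion.mpr ⟨_, hcP, h'⟩)
          simp only [hB2, Finset.mem_filter, Finset.mem_univ, true_and, not_and, not_not] at h2
          have h3 := h2 huc.symm
          apply hi
          refine ⟨(e, c), ⟨huc, Finset.mem_union_right _ (Finset.mem_biUnion.mpr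
            ⟨_, hcP, Finset.mem_image.mpr ⟨_, h3, by rw [huc]⟩⟩)⟩, hc2⟩
      · have h1 := hsum_un (B0 ∪ Finset.univ.biUnion B1) (P.biUnion B2)
        have h2 := hsum_un B0 (Finset.univ.biUnion B1)
        push_cast
        linarith

theorem exists_sys {δ κ : ℝ} (hδ : 0 < δ) (hκ : 0 < κ) (A : ℕ) :
    ∃ (E S : Type) (_ : Fintype E) (_ : Fintype S) (_ : Nonempty E) (alive : S → Set E)
      (φ : S → Set E → ℕ), IsSys δ κ A E S alive φ := by
  induction A with
  | zero => exact ⟨Unit, Unit, inferInstance, inferInstance, inferInstance, _, _, isSys_zero δ κ⟩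
  | succ A ih =>
    obtain ⟨E, S, _, _, _, alive, φ, h⟩ := ih
    obtain ⟨s, hs, h'⟩ := isSys_succ hδ hκ h
    have : Nonempty (Fin s) := ⟨⟨0, hs⟩⟩
    exact ⟨E × Fin s, NextS alive s, inferInstance, inferInstance, inferInstance, _, _, h'⟩

end Crest.Agent.R71
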